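import Mathlib

/-! # P100, module ALG: algebra of exponents

`alg`: `I ≤ a (a I^(1/q) V^(1-1/q))^(1/p) V^(1-1/p) = a^(1+1/p) I^(1/(pq)) V^(1-1/(pq))`, so (if
`I > 0`) `I^(1-1/(pq)) ≤ a^((p+1)/p) V^(1-1/(pq))`; raise to the power `pq/(pq-1)`.
`expo`: with `d = pq - 1 > 0`, `s = p + q + 2`: subcriticality is `2 s / d > n - 2`, and
`2q(p+1)/d + 2p(q+1)/d = 4 + 2 s / d > n + 2 ≥ 2 m`. -/

open Set Filter Topology

namespace Vale.Agent.P100

theorem alg {p q a V I J : ℝ} (hp : 1 < p) (hq : 1 < q) (ha : 0 < a) (hV : 0 < V) (hI : 0 ≤ I)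
    (hJ : 0 ≤ J) (h1 : J ≤ a * (I ^ (1 / q) * V ^ (1 - 1 / q)))
    (h2 : I ≤ a * (J ^ (1 / p) * V ^ (1 - 1 / p))) :
    I ≤ a ^ (q * (p + 1) / (p * q - 1)) * V := by
  have hp0 : 0 < p := by linarith
  have hq0 : 0 < q := by linarith
  have hD : 0 < p * q - 1 := by nlinarith
  rcases hI.eq_or_lt with hI0 | hI0
  · rw [← hI0]
    positivity
  have hJ0 : 0 < J := by
    rcases hJ.eq_or_lt with h | h
    · exfalso
      rw [← h, Real.zero_rpow (by positivity), zero_mul, mul_zero] at h2
      linarith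
    · exact h
  have l1 : Real.log J ≤ Real.log a + (1 / q * Real.log I + (1 - 1 / q) * Real.log V) := by
    have h := Real.log_le_log hJ0 h1
    rwa [Real.log_mul ha.ne' (by positivity), Real.log_mul (by positivity) (by positivity),
      Real.log_rpow hI0, Real.log_rpow hV] at h
  have l2 : Real.log I ≤ Real.log a + (1 / p * Real.log J + (1 - 1 / p) * Real.log V) := by
    have h := Real.log_le_log hI0 h2
    rwa [Real.log_mul ha.ne' (by positivity), Real.log_mul (by positivity) (by positivity),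
      Real.log_rpow hJ0, Real.log_rpow hV] at h
  have m1 : q * Real.log J ≤ q * Real.log a + Real.log I + (q - 1) * Real.log V := by
    have h := mul_le_mul_of_nonneg_left l1 hq0.le
    have e : q * (Real.log a + (1 / q * Real.log I + (1 - 1 / q) * Real.log V))
        = q * Real.log a + Real.log I + (q - 1) * Real.log V := by
      field_simp
      ring
    linarith
  have m2 : p * Real.log I ≤ p * Real.log a + Real.log J + (p - 1) * Real.log V := by
    have h := mul_le_mul_of_nonneg_left l2 hp0.le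
    have e : p * (Real.log a + (1 / p * Real.log J + (1 - 1 / p) * Real.log V))
        = p * Real.log a + Real.log J + (p - 1) * Real.log V := by
      field_simp
      ring
    linarith
  have m3 := mul_le_mul_of_nonneg_left m2 hq0.le
  have m4 : (p * q - 1) * Real.log I ≤ q * (p + 1) * Real.log a + (p * q - 1) * Real.log V := by
    nlinarith
  rw [← Real.log_le_log_iff hI0 (by positivity), Real.log_mul (by positivity) hV.ne',
    Real.log_rpow ha]
  have m5 : Real.log I ≤ (q * (p + 1) * Real.log a + (p * q - 1) * Real.log V) / (p * q - 1) := by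
    rw [le_div_iff₀ hD]
    linarith
  have e : (q * (p + 1) * Real.log a + (p * q - 1) * Real.log V) / (p * q - 1)
      = q * (p + 1) / (p * q - 1) * Real.log a + Real.log V := by
    rw [add_div, mul_div_cancel_left₀ _ hD.ne']
    ring
  linarith

theorem expo {n k m : ℕ} {p q : ℝ} (hp : 1 < p) (hq : 1 < q) (hn : 3 ≤ n)
    (hsub : ((n : ℝ) - 2) / n < 1 / (p + 1) + 1 / (q + 1)) (hk : n ≤ 2 * k + 2)
    (hm : m + k = n) :
    (m : ℝ) < 2 * (q * (p + 1) / (p * q - 1)) ∨ (m : ℝ) < 2 * (p * (q + 1) / (p * q - 1)) := by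
  have hn' : (3 : ℝ) ≤ n := by exact_mod_cast hn
  have hk' : (n : ℝ) ≤ 2 * k + 2 := by exact_mod_cast hk
  have hm' : (m : ℝ) + k = n := by exact_mod_cast hm
  have hd : 0 < p * q - 1 := by nlinarith
  have hp1 : 0 < p + 1 := by linarith
  have hq1 : 0 < q + 1 := by linarith
  have h1 : ((n : ℝ) - 2) * (p * q - 1) < 2 * (p + q + 2) := by
    rw [div_add_div _ _ hp1.ne' hq1.ne', div_lt_div_iff₀ (by linarith) (mul_pos hp1 hq1)] at hsub
    nlinarith
  by_contra hc
  rw [not_or, not_lt, not_lt] at hc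
  obtain ⟨h2, h3⟩ := hc
  rw [← mul_div_assoc, div_le_iff₀ hd] at h2 h3
  have h4 : 2 * (m : ℝ) ≤ n + 2 := by linarith
  have h5 := mul_le_mul_of_nonneg_right h4 hd.le
  nlinarith

end Vale.Agent.P100
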