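import Vale.Agent.P100.Defs
import Vale.Agent.P134.Cut

/-! # P100, module CUT2: product cutoffs with second derivatives

Same as `cut` (Vale/Agent/P134/Cut.lean), `η x = ∏ i, χ ((x i - c i) / r i)`, now `C^2` and with a
bound for the pure second derivatives
(`pd i (pd i η) x = χ'' ((x i - c i) / r i) / (r i)² * ∏ j ≠ i, χ (...)`). -/

open MeasureTheory Set Filter Topology

namespace Vale.Agent.P100

open Vale.Agent.P134

theorem CUT2_smooth : ContDiff ℝ 2 cutχ := by
  unfold cutχ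
  exact (Real.smoothTransition.contDiff.comp (contDiff_const.sub contDiff_id)).mul
    (Real.smoothTransition.contDiff.comp (contDiff_const.add contDiff_id))

theorem CUT2_deriv : ContDiff ℝ 1 (deriv cutχ) :=
  CUT2_smooth.deriv' (n := 1)

theorem CUT2_bound : ∃ K : ℝ, 0 < K ∧ ∀ t, |deriv (deriv cutχ) t| ≤ K := by
  have hc : Continuous (deriv (deriv cutχ)) := CUT2_deriv.continuous_deriv le_rfl
  have hs : HasCompactSupport (deriv (deriv cutχ)) := by
    refine HasCompactSupport.intro (isCompact_Icc (a := (-2 : ℝ)) (b := 2)) fun t ht => ?_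
    have ht2 : 2 < |t| := by
      by_contra hcon
      exact ht (abs_le.1 (not_lt.1 hcon))
    have h : deriv cutχ =ᶠ[𝓝 t] fun _ => (0 : ℝ) := by
      have : ∀ᶠ s in 𝓝 t, 2 < |s| := (continuous_abs.tendsto t).eventually (lt_mem_nhds ht2)
      exact this.mono fun s hs => cutχ_deriv_out hs
    rw [h.deriv_eq, deriv_const]
  obtain ⟨C, hC⟩ := hc.bounded_above_of_compact_support hs
  exact ⟨max C 1, lt_max_of_lt_right one_pos, fun t => (hC t).trans (le_max_left _ _)⟩

theorem CUT2_pd {n : ℕ} (c : E n) (r : Fin n → ℝ) (i : Fin n) (g : ℝ → ℝ)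
    (hg : ContDiff ℝ 1 g) (x : E n) :
    pd i (fun x => (∏ k ∈ Finset.univ.erase i, cutχ ((x k - c k) / r k)) *
      g ((x i - c i) / r i)) x
      = (∏ k ∈ Finset.univ.erase i, cutχ ((x k - c k) / r k)) *
        (deriv g ((x i - c i) / r i) / r i) := by
  obtain ⟨f, hf⟩ : ∃ f : E n → ℝ, f = fun x => (∏ k ∈ Finset.univ.erase i,
      cutχ ((x k - c k) / r k)) * g ((x i - c i) / r i) := ⟨_, rfl⟩
  have hfd : ContDiff ℝ 1 f := by
    rw [hf]
    refine ContDiff.mul ?_ ?_
    · refine contDiff_prod fun i _ => ?_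
      refine cutχ_smooth.comp ?_
      exact (((EuclideanSpace.proj i : E n →L[ℝ] ℝ).contDiff).sub contDiff_const).div_const _
    · refine hg.comp ?_
      exact (((EuclideanSpace.proj i : E n →L[ℝ] ℝ).contDiff).sub contDiff_const).div_const _
  have hdiff : DifferentiableAt ℝ f x := hfd.differentiable (by norm_num) x
  rw [← hf]
  unfold pd
  rw [← hdiff.lineDeriv_eq_fderiv]
  unfold lineDeriv
  have hfun : (fun t : ℝ => f (x + t • EuclideanSpace.single i (1 : ℝ))) = fun t =>
      (∏ k ∈ Finset.univ.erase i, cutχ ((x k - c k) / r k)) *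
        g ((x i + t - c i) / r i) := by
    funext t
    simp only [hf]
    congr 1
    · refine Finset.prod_congr rfl fun k hk => ?_
      have hki : k ≠ i := Finset.ne_of_mem_erase hk
      simp [hki]
    · simp
  rw [hfun]
  have h1 : HasDerivAt (fun t : ℝ => (x i + t - c i) / r i) (1 / r i) 0 := by
    have := (((hasDerivAt_id (0 : ℝ)).const_add (x i)).sub_const (c i)).div_const (r i)
    exact this
  have h2 : HasDerivAt g (deriv g ((x i + 0 - c i) / r i)) ((x i + 0 - c i) / r i) :=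
    (hg.differentiable (by norm_num) _).hasDerivAt
  have h3 := (h2.comp (0 : ℝ) h1).const_mul
    (∏ k ∈ Finset.univ.erase i, cutχ ((x k - c k) / r k))
  have h4 := h3.deriv
  simp only [add_zero] at h4
  rw [show (fun t : ℝ => (∏ k ∈ Finset.univ.erase i, cutχ ((x k - c k) / r k)) *
        g ((x i + t - c i) / r i)) = fun y =>
    (∏ k ∈ Finset.univ.erase i, cutχ ((x k - c k) / r k)) *
      (g ∘ fun t : ℝ => (x i + t - c i) / r i) y from rfl, h4, mul_one_div]

theorem cut2 : ∃ K : ℝ, 0 < K ∧ ∀ (n : ℕ) (c : E n) (r : Fin n → ℝ), (∀ i, 0 < r i) →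
    ∃ η : E n → ℝ, ContDiff ℝ 2 η ∧ HasCompactSupport η ∧ (∀ x, 0 ≤ η x ∧ η x ≤ 1) ∧
      (∀ x ∈ box c r, η x = 1) ∧ (∀ x, x ∉ box c (fun i => 2 * r i) → η x = 0) ∧
      (∀ i x, |pd i η x| ≤ K / r i) ∧ (∀ i x, |pd i (pd i η) x| ≤ K / r i ^ 2) := by
  obtain ⟨K1, hK1, hKb1⟩ := cutχ_bound
  obtain ⟨K2, hK2, hKb2⟩ := CUT2_bound
  refine ⟨max K1 K2, lt_max_of_lt_left hK1, fun n c r hr => ?_⟩
  set η : E n → ℝ := fun x => ∏ i, cutχ ((x i - c i) / r i) with hη
  have hηd : ContDiff ℝ 2 η := by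
    refine contDiff_prod fun i _ => ?_
    refine CUT2_smooth.comp ?_
    exact (((EuclideanSpace.proj i : E n →L[ℝ] ℝ).contDiff).sub contDiff_const).div_const _
  have hout : ∀ x, x ∉ box c (fun i => 2 * r i) → ∃ j, 2 < |(x j - c j) / r j| := by
    intro x hx
    simp only [box, Set.mem_setOf_eq, not_forall, not_le] at hx
    obtain ⟨j, hj⟩ := hx
    refine ⟨j, ?_⟩
    rw [abs_div, abs_of_pos (hr j), lt_div_iff₀ (hr j)]
    exact hj
  have hη0 : ∀ x, x ∉ box c (fun i => 2 * r i) → η x = 0 := by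
    intro x hx
    obtain ⟨j, hj⟩ := hout x hx
    exact Finset.prod_eq_zero (Finset.mem_univ j) (cutχ_zero hj.le)
  have hpd : ∀ i, pd i η = fun x => (∏ k ∈ Finset.univ.erase i, cutχ ((x k - c k) / r k)) *
      (deriv cutχ ((x i - c i) / r i) / r i) := by
    intro i
    funext x
    have e1 : η = fun x => (∏ k ∈ Finset.univ.erase i, cutχ ((x k - c k) / r k)) *
        cutχ ((x i - c i) / r i) := by
      funext x
      simp only [hη]
      rw [← Finset.prod_erase_mul _ _ (Finset.mem_univ i)]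
    rw [e1]
    exact CUT2_pd c r i cutχ cutχ_smooth x
  have hpd2 : ∀ i x, pd i (pd i η) x = (∏ k ∈ Finset.univ.erase i, cutχ ((x k - c k) / r k)) *
      (deriv (deriv cutχ) ((x i - c i) / r i) / r i ^ 2) := by
    intro i x
    rw [hpd]
    have h1 := CUT2_pd c r i (fun t => deriv cutχ t / r i) (CUT2_deriv.div_const _) x
    rw [h1, deriv_div_const, div_div, ← sq]
  have hprod : ∀ i (x : E n), |∏ k ∈ Finset.univ.erase i, cutχ ((x k - c k) / r k)| ≤ 1 := by
    intro i x
    rw [abs_of_nonneg (Finset.prod_nonneg fun i _ => cutχ_nonneg _)]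
    exact Finset.prod_le_one (fun i _ => cutχ_nonneg _) fun i _ => cutχ_le _
  refine ⟨η, hηd, HasCompactSupport.intro (cut_box_compact c _) hη0, fun x => ⟨?_, ?_⟩, ?_, hη0,
    ?_, ?_⟩
  · exact Finset.prod_nonneg fun i _ => cutχ_nonneg _
  · exact Finset.prod_le_one (fun i _ => cutχ_nonneg _) fun i _ => cutχ_le _
  · intro x hx
    refine Finset.prod_eq_one fun i _ => cutχ_one ?_
    rw [abs_div, abs_of_pos (hr i), div_le_one (hr i)]
    exact hx i
  · intro i x
    rw [hpd]
    show |(∏ k ∈ Finset.univ.erase i, cutχ ((x k - c k) / r k)) *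
      (deriv cutχ ((x i - c i) / r i) / r i)| ≤ _
    rw [abs_mul, abs_div, abs_of_pos (hr i)]
    have h2 : |deriv cutχ ((x i - c i) / r i)| / r i ≤ max K1 K2 / r i :=
      div_le_div_of_nonneg_right ((hKb1 _).trans (le_max_left _ _)) (hr i).le
    have h3 : 0 ≤ |deriv cutχ ((x i - c i) / r i)| / r i :=
      div_nonneg (abs_nonneg _) (hr i).le
    calc _ ≤ 1 * (|deriv cutχ ((x i - c i) / r i)| / r i) :=
          mul_le_mul_of_nonneg_right (hprod i x) h3
      _ ≤ max K1 K2 / r i := by rw [one_mul]; exact h2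
  · intro i x
    rw [hpd2, abs_mul, abs_div, abs_of_pos (pow_pos (hr i) 2)]
    have h2 : |deriv (deriv cutχ) ((x i - c i) / r i)| / r i ^ 2 ≤ max K1 K2 / r i ^ 2 :=
      div_le_div_of_nonneg_right ((hKb2 _).trans (le_max_right _ _)) (pow_pos (hr i) 2).le
    have h3 : 0 ≤ |deriv (deriv cutχ) ((x i - c i) / r i)| / r i ^ 2 :=
      div_nonneg (abs_nonneg _) (pow_pos (hr i) 2).le
    calc _ ≤ 1 * (|deriv (deriv cutχ) ((x i - c i) / r i)| / r i ^ 2) :=
          mul_le_mul_of_nonneg_right (hprod i x) h3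
      _ ≤ max K1 K2 / r i ^ 2 := by rw [one_mul]; exact h2

end Vale.Agent.P100
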