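import Vale.Agent.P134.Defs2

/-! # P100, definitions: the Lane-Emden system, solutions with periods

THEOREM: for `p, q > 1` subcritical in `ℝ^n` (`n ≥ 3`) the Lane-Emden system has no positive entire
solution with `k` independent periods, `2 k + 2 ≥ n`.

PROOF.  Test function method (Mitidieri-Pohozaev) with cutoffs which are wide (`N`) in the `k`
periodic directions and of size `R` in the other `m = n - k`.  With `φ = η^s`,
`J = ∫ v^p φ = - ∫ u Δφ ≤ a I^(1/q) V^(1-1/q)`, `I = ∫ u^q φ ≤ a J^(1/p) V^(1-1/p)`, `a = C / R²`,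
`V` the volume of the box, so `I ≤ a^(q(p+1)/(pq-1)) V`, i.e.
`∫_{box} u^q ≤ C N^k R^(m - 2q(p+1)/(pq-1))`.  By periodicity the left side is `≥ c N^k` unless
`u = 0`, so `m ≥ 2q(p+1)/(pq-1)`, and in the same way `m ≥ 2p(q+1)/(pq-1)`; adding,
`2m ≥ 4 + 2(p+q+2)/(pq-1) > 4 + (n - 2)`, contradiction to `2 m ≤ n + 2`. -/

open MeasureTheory Set Filter Topology

namespace Vale.Agent.P100

open Vale.Agent.P134

/-- the Laplacian -/
noncomputable def lap {n : ℕ} (u : E n → ℝ) (x : E n) : ℝ := ∑ i, pd i (pd i u) x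

/-- positive entire supersolution of the Lane-Emden system -/
def IsSuper {n : ℕ} (p q : ℝ) (u v : E n → ℝ) : Prop :=
  ContDiff ℝ 2 u ∧ ContDiff ℝ 2 v ∧ (∀ x, 0 < u x) ∧ (∀ x, 0 < v x) ∧
    (∀ x, v x ^ p ≤ - lap u x) ∧ ∀ x, u x ^ q ≤ - lap v x

end Vale.Agent.P100
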