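import Vale.Agent.P100.Defs
import Vale.Agent.P134.Vol

/-! # P100, module HOLD: Hoelder's inequality

`f η^(s-2) = (f η^(s/q)) * η^(s - 2 - s/q)` with `s - 2 - s/q ≥ 0`, so the second factor is at most
the indicator of the box `B` outside which `η` vanishes; `integral_mul_le_Lp_mul_Lq_of_nonneg` with
exponents `q` and `q/(q-1)`. -/

open MeasureTheory Set Filter Topology

namespace Vale.Agent.P100

open Vale.Agent.P134

theorem hold {n : ℕ} {f η : E n → ℝ} (hf : Continuous f) (hf0 : ∀ x, 0 < f x)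
    (hη : Continuous η) (h01 : ∀ x, 0 ≤ η x ∧ η x ≤ 1) {c : E n} {r : Fin n → ℝ}
    (hr : ∀ i, 0 < r i) (h0 : ∀ x, x ∉ box c r → η x = 0) {q : ℝ} (hq : 1 < q) {s : ℕ}
    (hs2 : 2 < s) (hs : 2 * q ≤ s * (q - 1)) :
    ∫ x, f x * η x ^ (s - 2) ≤
      (∫ x, f x ^ q * η x ^ s) ^ (1 / q) * (∏ i, (2 * r i)) ^ (1 - 1 / q) := by
  have hq0 : 0 < q := by linarith
  have hq1 : 0 < q - 1 := by linarith
  have hs0 : (0 : ℝ) < s := by exact_mod_cast (by omega : 0 < s)
  set t : ℝ := s / q with ht
  have ht0 : 0 < t := by positivity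
  have hts : t ≤ ((s - 2 : ℕ) : ℝ) := by
    rw [Nat.cast_sub (by omega), ht, div_le_iff₀ hq0]
    push_cast
    nlinarith
  have hbc := box_compact c r
  have hbm : MeasurableSet (box c r) := hbc.measurableSet
  set F : E n → ℝ := fun x => f x * η x ^ t with hF
  set G : E n → ℝ := (box c r).indicator (fun _ => (1 : ℝ)) with hG
  have hFout : ∀ x, x ∉ box c r → F x = 0 := by
    intro x hx
    simp only [hF]
    rw [h0 x hx, Real.zero_rpow ht0.ne', mul_zero]
  have hFc : Continuous F := hf.mul (hη.rpow_const fun x => Or.inr ht0.le)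
  have hFs : HasCompactSupport F := HasCompactSupport.intro hbc hFout
  have hF0 : ∀ x, 0 ≤ F x := fun x => mul_nonneg (hf0 x).le (Real.rpow_nonneg (h01 x).1 _)
  have hG0 : ∀ x, 0 ≤ G x := fun x => indicator_nonneg (fun _ _ => zero_le_one) x
  have hpq : q.HolderConjugate (q / (q - 1)) := Real.HolderConjugate.conjExponent hq
  have hFL : MemLp F (ENNReal.ofReal q) volume := hFc.memLp_of_hasCompactSupport hFs
  have hGL : MemLp G (ENNReal.ofReal (q / (q - 1))) volume :=
    memLp_indicator_const _ hbm _ (Or.inr hbc.measure_ne_top)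
  have key := integral_mul_le_Lp_mul_Lq_of_nonneg hpq (Eventually.of_forall hF0)
    (Eventually.of_forall hG0) hFL hGL
  have hFq : ∀ x, F x ^ q = f x ^ q * η x ^ s := by
    intro x
    simp only [hF]
    rw [Real.mul_rpow (hf0 x).le (Real.rpow_nonneg (h01 x).1 _), ← Real.rpow_mul (h01 x).1, ht,
      div_mul_cancel₀ _ hq0.ne', Real.rpow_natCast]
  have hGq : ∀ x, G x ^ (q / (q - 1)) = G x := by
    intro x
    by_cases hx : x ∈ box c r
    · rw [hG, indicator_of_mem hx, Real.one_rpow]
    · rw [hG, indicator_of_notMem hx, Real.zero_rpow (by positivity)]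
  have hGint : ∫ x, G x = ∏ i, (2 * r i) := by
    rw [hG, integral_indicator hbm, setIntegral_const, smul_eq_mul, mul_one]
    exact box_vol c (fun i => (hr i).le)
  have hFG : ∀ x, F x * G x = F x := by
    intro x
    by_cases hx : x ∈ box c r
    · rw [hG, indicator_of_mem hx, mul_one]
    · rw [hFout x hx, zero_mul]
  simp only [hFG, hFq, hGq, hGint] at key
  have he : 1 / (q / (q - 1)) = 1 - 1 / q := by
    field_simp
  rw [he] at key
  refine le_trans (integral_mono ?_ (hFc.integrable_of_hasCompactSupport hFs) fun x => ?_) key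
  · have h1 : Continuous fun x => f x * η x ^ (s - 2) := hf.mul (hη.pow _)
    refine h1.integrable_of_hasCompactSupport (HasCompactSupport.intro hbc fun x hx => ?_)
    rw [h0 x hx, zero_pow (by omega), mul_zero]
  · change f x * η x ^ (s - 2) ≤ f x * η x ^ t
    refine mul_le_mul_of_nonneg_left ?_ (hf0 x).le
    rw [← Real.rpow_natCast]
    exact Real.rpow_le_rpow_of_exponent_ge' (h01 x).1 (h01 x).2 ht0.le hts

end Vale.Agent.P100
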