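import Vale.Agent.P100.Defs

/-! # P100, module LAPPOW: `pd i (pd i (η^s)) = s η^(s-1) pd i (pd i η) + s (s-1) η^(s-2) (pd i η)²` -/

open MeasureTheory Set Filter Topology

namespace Vale.Agent.P100

open Vale.Agent.P134

theorem LAPPOW_pd_pow {n : ℕ} {η : E n → ℝ} (hη : Differentiable ℝ η) (s : ℕ) (i : Fin n)
    (x : E n) : pd i (fun y => η y ^ s) x = (s : ℝ) * η x ^ (s - 1) * pd i η x := by
  unfold pd
  have h := ((hη x).hasFDerivAt.pow s).fderiv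
  rw [h]
  simp

theorem LAPPOW_pd_mul {n : ℕ} {f g : E n → ℝ} (hf : Differentiable ℝ f)
    (hg : Differentiable ℝ g) (i : Fin n)
    (x : E n) : pd i (fun y => f y * g y) x = f x * pd i g x + g x * pd i f x := by
  unfold pd
  have h := ((hf x).hasFDerivAt.mul (hg x).hasFDerivAt).fderiv
  have h2 : (fun y => f y * g y) = f * g := rfl
  rw [h2, h]
  simp

theorem LAPPOW_pd_contDiff {n : ℕ} {η : E n → ℝ} (hη : ContDiff ℝ 2 η) (i : Fin n) :
    ContDiff ℝ 1 (pd i η) := by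
  unfold pd
  exact (hη.fderiv_right (m := 1) (by norm_num)).clm_apply contDiff_const

theorem LAPPOW_two {n : ℕ} {η : E n → ℝ} (hη : ContDiff ℝ 2 η) {s : ℕ} (hs : 2 ≤ s) (i : Fin n)
    (x : E n) : pd i (pd i (fun y => η y ^ s)) x =
      (s : ℝ) * η x ^ (s - 1) * pd i (pd i η) x +
        (s : ℝ) * ((s : ℝ) - 1) * η x ^ (s - 2) * pd i η x ^ 2 := by
  have hd : Differentiable ℝ η := hη.differentiable (by norm_num)
  have e1 : pd i (fun y => η y ^ s) = fun y => ((s : ℝ) * η y ^ (s - 1)) * pd i η y :=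
    funext fun y => LAPPOW_pd_pow hd s i y
  have hd2 : Differentiable ℝ (pd i η) := (LAPPOW_pd_contDiff hη i).differentiable (by norm_num)
  have hd3 : Differentiable ℝ (fun y => (s : ℝ) * η y ^ (s - 1)) :=
    (differentiable_const _).mul (hd.pow _)
  have hd4 : Differentiable ℝ (fun y => η y ^ (s - 1)) := hd.pow _
  rw [e1, LAPPOW_pd_mul hd3 hd2, LAPPOW_pd_mul (differentiable_const _) hd4]
  have e2 : pd i (fun _ : E n => (s : ℝ)) x = 0 := by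
    unfold pd
    simp
  have e3 := LAPPOW_pd_pow hd (s - 1) i x
  have e4 : s - 1 - 1 = s - 2 := by omega
  have e5 : ((s - 1 : ℕ) : ℝ) = (s : ℝ) - 1 := by
    rw [Nat.cast_sub (by omega)]
    norm_num
  rw [e4, e5] at e3
  rw [e2, e3]
  ring

theorem lap_pow {n : ℕ} {η : E n → ℝ} (hη : ContDiff ℝ 2 η) (h01 : ∀ x, 0 ≤ η x ∧ η x ≤ 1)
    {s : ℕ} (hs : 2 ≤ s) (x : E n) :
    |lap (fun y => η y ^ s) x| ≤
      (s : ℝ) ^ 2 * (∑ i, (|pd i (pd i η) x| + pd i η x ^ 2)) * η x ^ (s - 2) := by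
  unfold lap
  rw [mul_assoc, Finset.sum_mul, Finset.mul_sum]
  refine (Finset.abs_sum_le_sum_abs _ _).trans (Finset.sum_le_sum fun i _ => ?_)
  rw [LAPPOW_two hη hs]
  obtain ⟨h0, h1⟩ := h01 x
  have hs' : (2 : ℝ) ≤ s := by exact_mod_cast hs
  have hp2 : 0 ≤ η x ^ (s - 2) := pow_nonneg h0 _
  have hp1 : 0 ≤ η x ^ (s - 1) := pow_nonneg h0 _
  have hp12 : η x ^ (s - 1) ≤ η x ^ (s - 2) := pow_le_pow_of_le_one h0 h1 (by omega)
  have a1 : |(s : ℝ) * η x ^ (s - 1) * pd i (pd i η) x| ≤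
      (s : ℝ) ^ 2 * (|pd i (pd i η) x| * η x ^ (s - 2)) := by
    rw [abs_mul, abs_of_nonneg (by positivity)]
    have b1 : (s : ℝ) ≤ (s : ℝ) ^ 2 := by nlinarith
    calc (s : ℝ) * η x ^ (s - 1) * |pd i (pd i η) x|
        ≤ (s : ℝ) ^ 2 * η x ^ (s - 2) * |pd i (pd i η) x| := by gcongr
      _ = _ := by ring
  have a2 : |(s : ℝ) * ((s : ℝ) - 1) * η x ^ (s - 2) * pd i η x ^ 2| ≤
      (s : ℝ) ^ 2 * (pd i η x ^ 2 * η x ^ (s - 2)) := by
    have b0 : 0 ≤ (s : ℝ) - 1 := by linarith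
    rw [abs_of_nonneg (by positivity)]
    have b1 : (s : ℝ) * ((s : ℝ) - 1) ≤ (s : ℝ) ^ 2 := by nlinarith
    calc (s : ℝ) * ((s : ℝ) - 1) * η x ^ (s - 2) * pd i η x ^ 2
        ≤ (s : ℝ) ^ 2 * η x ^ (s - 2) * pd i η x ^ 2 := by gcongr
      _ = _ := by ring
  calc _ ≤ |(s : ℝ) * η x ^ (s - 1) * pd i (pd i η) x| +
        |(s : ℝ) * ((s : ℝ) - 1) * η x ^ (s - 2) * pd i η x ^ 2| := abs_add_le _ _
    _ ≤ _ := by
      have : (s : ℝ) ^ 2 * ((|pd i (pd i η) x| + pd i η x ^ 2) * η x ^ (s - 2)) =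
        (s : ℝ) ^ 2 * (|pd i (pd i η) x| * η x ^ (s - 2)) +
          (s : ℝ) ^ 2 * (pd i η x ^ 2 * η x ^ (s - 2)) := by ring
      rw [this]
      exact add_le_add a1 a2

end Vale.Agent.P100
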