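import Vale.Agent.P100.Green
import Vale.Agent.P100.Cut2
import Vale.Agent.P100.LapPow
import Vale.Agent.P100.Hold
import Vale.Agent.P100.Alg
import Vale.Agent.P134.PerS

/-! # P100, module EST: the integral estimate

`η` = cutoff of `cut2` for `r = sideS S N R`, `φ = η^s`, `s` a natural number `> 2` with
`2 q ≤ s (q - 1)` and `2 p ≤ s (p - 1)`.  `green`, `lap_pow`, `cut2` (`1 / r i ≤ 1 / R`):
`J = ∫ v^p φ ≤ - ∫ (lap u) φ = - ∫ u lap φ ≤ a ∫ u η^(s-2)`, `a = s² n (K + K²) / R²`;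
`hold` for the double box (`∏ (4 r i) = 4^n N^(n - card S) R^(card S)`, `sideS_prod`);
the same with `u`, `v` exchanged; `alg`.  (`a^γ = (s² n (K+K²))^γ R^(-2γ)`; `n ≥ 1` may be assumed:
for `n = 0` take any constant, or replace `n` by `n + 1` in `a`.) -/

open MeasureTheory Set Filter Topology

namespace Vale.Agent.P100

open Vale.Agent.P134

theorem EST_int {n : ℕ} {f η : E n → ℝ} (hf : Continuous f) (hη : Continuous η)
    (hηc : HasCompactSupport η) {k : ℕ} (hk : 0 < k) :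
    Integrable (fun x => f x * η x ^ k) := by
  have h1 : HasCompactSupport (fun x => η x ^ k) :=
    hηc.comp_left (g := fun t : ℝ => t ^ k) (zero_pow hk.ne')
  have h2 : HasCompactSupport (fun x => f x * η x ^ k) := h1.mul_left
  exact (hf.mul (hη.pow k)).integrable_of_hasCompactSupport h2

theorem EST_half {n : ℕ} {q : ℝ} (hq : 1 < q) {s : ℕ} (hs2 : 2 < s) (hs : 2 * q ≤ s * (q - 1))
    {u w η : E n → ℝ} (hu : ContDiff ℝ 2 u) (hu0 : ∀ x, 0 < u x) (hw : Continuous w)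
    (hwu : ∀ x, w x ≤ - lap u x) (hη : ContDiff ℝ 2 η) (hηc : HasCompactSupport η)
    (h01 : ∀ x, 0 ≤ η x ∧ η x ≤ 1) {c : E n} {r : Fin n → ℝ} (hr : ∀ i, 0 < r i)
    (h0 : ∀ x, x ∉ box c r → η x = 0) {a : ℝ} (ha : 0 ≤ a)
    (hlap : ∀ x, |lap (fun y => η y ^ s) x| ≤ a * η x ^ (s - 2)) :
    ∫ x, w x * η x ^ s ≤
      a * ((∫ x, u x ^ q * η x ^ s) ^ (1 / q) * (∏ i, (2 * r i)) ^ (1 - 1 / q)) := by
  have hφ : ContDiff ℝ 2 (fun y => η y ^ s) := hη.pow s
  have hφc : HasCompactSupport (fun y => η y ^ s) :=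
    hηc.comp_left (g := fun t : ℝ => t ^ s) (zero_pow (by omega))
  have hs0 : 0 < s := by omega
  have hs20 : 0 < s - 2 := by omega
  have g1 : ∫ x, w x * η x ^ s ≤ ∫ x, (- lap u x) * η x ^ s := by
    refine integral_mono (EST_int hw hη.continuous hηc hs0)
      (EST_int (lap_cont hu).neg hη.continuous hηc hs0) ?_
    intro x
    exact mul_le_mul_of_nonneg_right (hwu x) (pow_nonneg (h01 x).1 s)
  have g2 : ∫ x, (- lap u x) * η x ^ s = - ∫ x, u x * lap (fun y => η y ^ s) x := by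
    rw [← green hu hφ hφc, ← integral_neg]
    refine integral_congr_ae (Eventually.of_forall fun x => ?_)
    show (- lap u x) * η x ^ s = - (lap u x * η x ^ s)
    ring
  have g3 : ‖∫ x, u x * lap (fun y => η y ^ s) x‖ ≤ ∫ x, a * (u x * η x ^ (s - 2)) := by
    refine norm_integral_le_of_norm_le
      ((EST_int hu.continuous hη.continuous hηc hs20).const_mul a) ?_
    refine Eventually.of_forall fun x => ?_
    rw [norm_mul, Real.norm_eq_abs, Real.norm_eq_abs, abs_of_pos (hu0 x)]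
    have h := mul_le_mul_of_nonneg_left (hlap x) (hu0 x).le
    linarith
  have g4 := hold hu.continuous hu0 hη.continuous h01 hr h0 hq hs2 hs
  have g5 : ∫ x, a * (u x * η x ^ (s - 2)) = a * ∫ x, u x * η x ^ (s - 2) :=
    integral_const_mul _ _
  have g6 := mul_le_mul_of_nonneg_left g4 ha
  rw [Real.norm_eq_abs] at g3
  have g7 := neg_abs_le (∫ x, u x * lap (fun y => η y ^ s) x)
  linarith

theorem est {n : ℕ} (S : Finset (Fin n)) {p q : ℝ} (hp : 1 < p) (hq : 1 < q) :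
    ∃ C : ℝ, 0 < C ∧ ∀ u v : E n → ℝ, IsSuper p q u v → ∀ (c : E n) (N R : ℝ), 0 < R → R ≤ N →
      ∫ x in box c (sideS S N R), u x ^ q ≤
        C * (N ^ (n - S.card) * R ^ S.card * R ^ (-(2 * (q * (p + 1) / (p * q - 1))))) := by
  obtain ⟨K, hK, hcut⟩ := cut2
  obtain ⟨s, hs⟩ := exists_nat_ge (2 * q / (q - 1) + 2 * p / (p - 1) + 3)
  have hq1 : 0 < q - 1 := by linarith
  have hp1 : 0 < p - 1 := by linarith
  have hq2 : 0 < 2 * q / (q - 1) := div_pos (by linarith) hq1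
  have hp2 : 0 < 2 * p / (p - 1) := div_pos (by linarith) hp1
  have hs3 : 2 < s := by
    have h : (2 : ℝ) < s := by linarith
    exact_mod_cast h
  have hsq : 2 * q ≤ s * (q - 1) := by
    have h : 2 * q / (q - 1) ≤ s := by linarith
    exact (div_le_iff₀ hq1).1 h
  have hsp : 2 * p ≤ s * (p - 1) := by
    have h : 2 * p / (p - 1) ≤ s := by linarith
    exact (div_le_iff₀ hp1).1 h
  obtain ⟨A, hA⟩ : ∃ A : ℝ, A = (s : ℝ) ^ 2 * (((n : ℝ) + 1) * (K + K ^ 2)) := ⟨_, rfl⟩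
  have hs0 : (0 : ℝ) < s := by
    have h : (2 : ℝ) < s := by exact_mod_cast hs3
    linarith
  have hA0 : 0 < A := by rw [hA]; positivity
  obtain ⟨γ, hγ⟩ : ∃ γ : ℝ, γ = q * (p + 1) / (p * q - 1) := ⟨_, rfl⟩
  refine ⟨A ^ γ * 4 ^ n, by positivity, ?_⟩
  rintro u v ⟨hu, hv, hu0, hv0, hvu, huv⟩ c N R hR hRN
  have hN : 0 < N := by linarith
  obtain ⟨r, hrdef⟩ : ∃ r : Fin n → ℝ, r = sideS S N R := ⟨_, rfl⟩
  have hRr : ∀ i, R ≤ r i := by
    intro i
    rw [hrdef]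
    unfold sideS
    split_ifs
    · exact le_rfl
    · exact hRN
  have hr : ∀ i, 0 < r i := fun i => lt_of_lt_of_le hR (hRr i)
  obtain ⟨η, hη, hηc, h01, hη1, hη0, hd1, hd2⟩ := hcut n c r hr
  have hR2 : 0 < R ^ 2 := by positivity
  have ha0 : 0 < A / R ^ 2 := div_pos hA0 hR2
  have hlap : ∀ x, |lap (fun y => η y ^ s) x| ≤ A / R ^ 2 * η x ^ (s - 2) := by
    intro x
    refine (lap_pow hη h01 (by omega) x).trans ?_
    refine mul_le_mul_of_nonneg_right ?_ (pow_nonneg (h01 x).1 _)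
    have hsum : ∑ i, (|pd i (pd i η) x| + pd i η x ^ 2) ≤ ∑ _i : Fin n, (K + K ^ 2) / R ^ 2 := by
      refine Finset.sum_le_sum fun i _ => ?_
      have hri2 : R ^ 2 ≤ r i ^ 2 := pow_le_pow_left₀ hR.le (hRr i) 2
      have h1 : |pd i (pd i η) x| ≤ K / R ^ 2 :=
        (hd2 i x).trans (div_le_div_of_nonneg_left hK.le hR2 hri2)
      have h2 : |pd i η x| ≤ K / R :=
        (hd1 i x).trans (div_le_div_of_nonneg_left hK.le hR (hRr i))
      have h3 : pd i η x ^ 2 ≤ (K / R) ^ 2 := by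
        rw [← sq_abs]
        exact pow_le_pow_left₀ (abs_nonneg _) h2 2
      rw [div_pow] at h3
      rw [add_div]
      linarith
    rw [Finset.sum_const, Finset.card_univ, Fintype.card_fin, nsmul_eq_mul] at hsum
    have h4 : (s : ℝ) ^ 2 * ∑ i, (|pd i (pd i η) x| + pd i η x ^ 2) ≤
        (s : ℝ) ^ 2 * ((n : ℝ) * ((K + K ^ 2) / R ^ 2)) :=
      mul_le_mul_of_nonneg_left hsum (by positivity)
    refine h4.trans ?_
    have h5 : 0 ≤ (K + K ^ 2) / R ^ 2 := by positivity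
    have h6 : A / R ^ 2 = (s : ℝ) ^ 2 * (((n : ℝ) + 1) * ((K + K ^ 2) / R ^ 2)) := by
      rw [hA]; ring
    rw [h6]
    refine mul_le_mul_of_nonneg_left ?_ (by positivity)
    refine mul_le_mul_of_nonneg_right ?_ h5
    linarith
  have hup : Continuous (fun x => u x ^ q) :=
    hu.continuous.rpow_const fun x => Or.inl (hu0 x).ne'
  have hvp : Continuous (fun x => v x ^ p) :=
    hv.continuous.rpow_const fun x => Or.inl (hv0 x).ne'
  have hr2 : ∀ i, 0 < 2 * r i := fun i => by have := hr i; linarith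
  obtain ⟨V, hV⟩ : ∃ V : ℝ, V = ∏ i, (2 * (2 * r i)) := ⟨_, rfl⟩
  have hV0 : 0 < V := by
    rw [hV]
    exact Finset.prod_pos fun i _ => by have := hr i; linarith
  obtain ⟨I, hI⟩ : ∃ I : ℝ, I = ∫ x, u x ^ q * η x ^ s := ⟨_, rfl⟩
  obtain ⟨J, hJ⟩ : ∃ J : ℝ, J = ∫ x, v x ^ p * η x ^ s := ⟨_, rfl⟩
  have hI0 : 0 ≤ I := by
    rw [hI]
    exact integral_nonneg fun x =>
      mul_nonneg (Real.rpow_nonneg (hu0 x).le _) (pow_nonneg (h01 x).1 _)
  have hJ0 : 0 ≤ J := by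
    rw [hJ]
    exact integral_nonneg fun x =>
      mul_nonneg (Real.rpow_nonneg (hv0 x).le _) (pow_nonneg (h01 x).1 _)
  have h1 : J ≤ A / R ^ 2 * (I ^ (1 / q) * V ^ (1 - 1 / q)) := by
    rw [hI, hJ, hV]
    exact EST_half hq hs3 hsq hu hu0 hvp hvu hη hηc h01 hr2 hη0 ha0.le hlap
  have h2 : I ≤ A / R ^ 2 * (J ^ (1 / p) * V ^ (1 - 1 / p)) := by
    rw [hI, hJ, hV]
    exact EST_half hp hs3 hsp hv hv0 hup huv hη hηc h01 hr2 hη0 ha0.le hlap
  have h3 := alg hp hq ha0 hV0 hI0 hJ0 h1 h2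
  have hint : Integrable (fun x => u x ^ q * η x ^ s) :=
    EST_int hup hη.continuous hηc (by omega)
  have h4 : ∫ x in box c (sideS S N R), u x ^ q ≤ I := by
    rw [← hrdef, hI]
    have h5 : ∫ x in box c r, u x ^ q = ∫ x in box c r, u x ^ q * η x ^ s := by
      refine setIntegral_congr_fun ?_ ?_
      · exact (box_compact c r).measurableSet
      · intro x hx
        show u x ^ q = u x ^ q * η x ^ s
        rw [hη1 x hx, one_pow, mul_one]
    rw [h5]
    refine setIntegral_le_integral hint (Eventually.of_forall fun x => ?_)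
    exact mul_nonneg (Real.rpow_nonneg (hu0 x).le _) (pow_nonneg (h01 x).1 _)
  have hVeq : V = 4 ^ n * (N ^ (n - S.card) * R ^ S.card) := by
    rw [hV]
    have h5 : ∀ i : Fin n, 2 * (2 * r i) = 4 * r i := fun i => by ring
    rw [Finset.prod_congr rfl fun i _ => h5 i, Finset.prod_mul_distrib, Finset.prod_const,
      Finset.card_univ, Fintype.card_fin, hrdef, sideS_prod]
  have haγ : (A / R ^ 2) ^ γ = A ^ γ * R ^ (-(2 * γ)) := by
    rw [Real.div_rpow hA0.le hR2.le, div_eq_mul_inv]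
    congr 1
    rw [Real.rpow_neg hR.le, Real.rpow_mul hR.le]
    norm_num
  rw [← hγ] at h3
  rw [← hγ]
  rw [hVeq, haγ] at h3
  refine h4.trans (h3.trans (le_of_eq ?_))
  ring

end Vale.Agent.P100
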