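import Vale.Agent.P100.Defs
import Vale.Agent.P134.Ibp

/-! # P100, module GREEN: integrate by parts twice (`ibp` of P134, `pd i f = dd (single i 1) f`
by `rfl`) -/

open MeasureTheory Set Filter Topology

namespace Vale.Agent.P100

open Vale.Agent.P134

theorem Green_pd {n : ℕ} {u : E n → ℝ} (hu : ContDiff ℝ 2 u) (i : Fin n) :
    ContDiff ℝ 1 (pd i u) :=
  (hu.fderiv_right (m := 1) (by norm_num)).clm_apply contDiff_const

theorem Green_pd0 {n : ℕ} {u : E n → ℝ} (hu : ContDiff ℝ 1 u) (i : Fin n) :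
    Continuous (pd i u) :=
  (hu.continuous_fderiv one_ne_zero).clm_apply continuous_const

theorem green {n : ℕ} {u φ : E n → ℝ} (hu : ContDiff ℝ 2 u) (hφ : ContDiff ℝ 2 φ)
    (hs : HasCompactSupport φ) : ∫ x, lap u x * φ x = ∫ x, u x * lap φ x := by
  have hs1 : ∀ i : Fin n, HasCompactSupport (pd i φ) := fun i =>
    hs.fderiv_apply (𝕜 := ℝ) (EuclideanSpace.single i 1)
  have hs2 : ∀ i : Fin n, HasCompactSupport (pd i (pd i φ)) := fun i =>
    (hs1 i).fderiv_apply (𝕜 := ℝ) (EuclideanSpace.single i 1)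
  have hu1 : ContDiff ℝ 1 u := hu.of_le (by norm_num)
  have hφ1 : ContDiff ℝ 1 φ := hφ.of_le (by norm_num)
  have e1 : ∫ x, lap u x * φ x = ∑ i, ∫ x, pd i (pd i u) x * φ x := by
    rw [← integral_finset_sum]
    · refine integral_congr_ae (Eventually.of_forall fun x => ?_)
      simp only [lap]
      rw [Finset.sum_mul]
    · intro i _
      exact ((Green_pd0 (Green_pd hu i) i).mul hφ.continuous).integrable_of_hasCompactSupport
        hs.mul_left
  have e2 : ∫ x, u x * lap φ x = ∑ i, ∫ x, u x * pd i (pd i φ) x := by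
    rw [← integral_finset_sum]
    · refine integral_congr_ae (Eventually.of_forall fun x => ?_)
      simp only [lap]
      rw [Finset.mul_sum]
    · intro i _
      exact (hu.continuous.mul (Green_pd0 (Green_pd hφ i) i)).integrable_of_hasCompactSupport
        (hs2 i).mul_left
  rw [e1, e2]
  refine Finset.sum_congr rfl fun i _ => ?_
  have a1 : ∫ x, pd i (pd i u) x * φ x = - ∫ x, pd i u x * pd i φ x :=
    ibp (Green_pd hu i) hφ1 hs (EuclideanSpace.single i 1)
  have a2 : ∫ x, pd i u x * pd i φ x = - ∫ x, u x * pd i (pd i φ) x :=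
    ibp hu1 (Green_pd hφ i) (hs1 i) (EuclideanSpace.single i 1)
  rw [a1, a2, neg_neg]

theorem lap_cont {n : ℕ} {u : E n → ℝ} (hu : ContDiff ℝ 2 u) : Continuous (lap u) := by
  have h : lap u = fun x => ∑ i, pd i (pd i u) x := rfl
  rw [h]
  exact continuous_finset_sum _ fun i _ => Green_pd0 (Green_pd hu i) i

end Vale.Agent.P100
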