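import Vale.Agent.P100.Defs
import Vale.Agent.P134.Rot

/-! # P100, module ROTL: the Laplacian commutes with rotations (see `isSol_comp` in
Vale/Agent/P134/Rot.lean, `lap_basis`) -/

open MeasureTheory Set Filter Topology

namespace Vale.Agent.P100

open Vale.Agent.P134

theorem lap_rot {n : ℕ} {u : E n → ℝ} (hu : ContDiff ℝ 2 u) (Q : E n ≃ₗᵢ[ℝ] E n) (x : E n) :
    lap (fun y => u (Q y)) x = lap u (Q x) := by
  have h4 := lap_basis hu ((EuclideanSpace.basisFun (Fin n) ℝ).map Q) (Q x)
  have h5 : ∀ i, pd i (pd i fun x => u (Q x)) x =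
      dd (((EuclideanSpace.basisFun (Fin n) ℝ).map Q) i)
        (dd (((EuclideanSpace.basisFun (Fin n) ℝ).map Q) i) u) (Q x) := by
    intro i
    have e1 : (pd i fun x => u (Q x)) = fun x => dd (Q (EuclideanSpace.single i 1)) u (Q x) := by
      funext y
      exact ROT_pd u Q i y
    rw [e1, ROT_pd (dd (Q (EuclideanSpace.single i 1)) u) Q i x]
    simp
  unfold lap
  rw [Finset.sum_congr rfl fun i _ => h5 i, h4]

theorem ROTL_pd_shift {n : ℕ} {f : E n → ℝ} {a : E n} (h : ∀ x, f (x + a) = f x) (i : Fin n)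
    (x : E n) : pd i f (x + a) = pd i f x := by
  unfold pd
  have h1 : (fun y => f (y + a)) = f := funext h
  have h2 := fderiv_comp_add_right (f := f) (x := x) (𝕜 := ℝ) a
  rw [h1] at h2
  rw [← h2]

theorem lap_shift {n : ℕ} {u : E n → ℝ} {a : E n} (h : ∀ x, u (x + a) = u x) (x : E n) :
    lap u (x + a) = lap u x := by
  unfold lap
  exact Finset.sum_congr rfl fun i _ =>
    ROTL_pd_shift (f := pd i u) (fun y => ROTL_pd_shift h i y) i x

end Vale.Agent.P100
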