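import Vale.Agent.P100.Est
import Vale.Agent.P100.RotL
import Vale.Agent.P134.FrameS
import Vale.Agent.P134.PerS

/-! # P100, assembly -/

open MeasureTheory Set Filter Topology
open scoped InnerProductSpace

namespace Vale.Agent.P100

open Vale.Agent.P134

theorem IsSuper.symm {n : ℕ} {p q : ℝ} {u v : E n → ℝ} (h : IsSuper p q u v) :
    IsSuper q p v u :=
  ⟨h.2.1, h.1, h.2.2.2.1, h.2.2.1, h.2.2.2.2.2, h.2.2.2.2.1⟩

theorem avg_of_est {n : ℕ} (S : Finset (Fin n)) {γ C : ℝ} (hγ : (S.card : ℝ) < γ) (hC : 0 < C)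
    {G : E n → ℝ} (hG : Continuous G) (hG0 : ∀ x, 0 ≤ G x)
    (h : ∀ (c : E n) (N R : ℝ), 0 < R → R ≤ N →
      ∫ x in box c (sideS S N R), G x ≤ C * (N ^ (n - S.card) * R ^ S.card * R ^ (-γ)))
    {ε : ℝ} (hε : 0 < ε) :
    ∃ N₀ : ℝ, 1 ≤ N₀ ∧ ∀ N : ℝ, N₀ ≤ N → ∀ c : E n,
      ∫ x in box c (sideS S N 1), G x ≤ ε * N ^ (n - S.card) := by
  have hlim : Tendsto (fun R : ℝ => C * R ^ (-(γ - S.card))) atTop (𝓝 (C * 0)) :=
    (tendsto_rpow_neg_atTop (sub_pos.2 hγ)).const_mul C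
  rw [mul_zero] at hlim
  obtain ⟨R, hR1, hR2⟩ := ((eventually_ge_atTop (1 : ℝ)).and
    (hlim.eventually (ge_mem_nhds hε))).exists
  have hR0 : 0 < R := by linarith
  refine ⟨R, hR1, fun N hN c => ?_⟩
  have hN0 : 0 < N := by linarith
  have hsub : box c (sideS S N 1) ⊆ box c (sideS S N R) := by
    intro x hx i
    refine (hx i).trans ?_
    unfold sideS
    split_ifs
    · exact hR1
    · exact le_rfl
  calc ∫ x in box c (sideS S N 1), G x ≤ ∫ x in box c (sideS S N R), G x := by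
        apply setIntegral_mono_set
        · exact hG.continuousOn.integrableOn_compact (box_compact _ _)
        · exact Filter.Eventually.of_forall hG0
        · exact hsub.eventuallyLE
    _ ≤ C * (N ^ (n - S.card) * R ^ S.card * R ^ (-γ)) := h c N R hR0 hN
    _ = (C * R ^ (-(γ - S.card))) * N ^ (n - S.card) := by
        have h1 : R ^ (-(γ - S.card)) = R ^ S.card * R ^ (-γ) := by
          rw [neg_sub, sub_eq_add_neg, Real.rpow_add hR0, Real.rpow_natCast]
        rw [h1]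
        ring
    _ ≤ ε * N ^ (n - S.card) := mul_le_mul_of_nonneg_right hR2 (by positivity)

theorem super_zero {n k : ℕ} (S : Finset (Fin n)) (hS : k = n - S.card) {p q : ℝ} (hp : 1 < p)
    (hq : 1 < q) (hm : (S.card : ℝ) < 2 * (q * (p + 1) / (p * q - 1))) {u v : E n → ℝ}
    (h : IsSuper p q u v) {w : Fin k → E n} (hw : LinearIndependent ℝ w)
    (hwS : ∀ j, ∀ i ∈ S, w j i = 0) (hper : ∀ j x, u (x + w j) = u x) : False := by
  obtain ⟨C, hC, hest⟩ := est S hp hq
  have hG : Continuous fun x => u x ^ q :=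
    h.1.continuous.rpow_const fun x => Or.inl (h.2.2.1 x).ne'
  have h0 := perS (G := fun x => u x ^ q) hS hG (fun x => (Real.rpow_pos_of_pos (h.2.2.1 x) _).le)
    hw hwS (fun j x => by show u (x + w j) ^ q = _; rw [hper])
    (fun ε hε => avg_of_est S hm hC hG (fun x => (Real.rpow_pos_of_pos (h.2.2.1 x) _).le)
      (fun c N R hR hRN => hest u v h c N R hR hRN) hε)
  exact (Real.rpow_pos_of_pos (h.2.2.1 0) q).ne' (h0 0)

/-- nonexistence of periodic solutions -/
theorem main {n k : ℕ} (hn : 3 ≤ n) {p q : ℝ} (hp : 1 < p) (hq : 1 < q)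
    (hsub : ((n : ℝ) - 2) / n < 1 / (p + 1) + 1 / (q + 1)) (hk : n ≤ 2 * k + 2)
    {u v : E n → ℝ} (hu : ContDiff ℝ 2 u) (hv : ContDiff ℝ 2 v) (hu0 : ∀ x, 0 < u x)
    (hv0 : ∀ x, 0 < v x) (h1 : ∀ x, - lap u x = v x ^ p) (h2 : ∀ x, - lap v x = u x ^ q)
    {w : Fin k → E n} (hw : LinearIndependent ℝ w) (hper : ∀ j x, u (x + w j) = u x) : False := by
  have hvper : ∀ j x, v (x + w j) = v x := by
    intro j x
    have h3 : v (x + w j) ^ p = v x ^ p := by
      rw [← h1, ← h1, lap_shift (hper j)]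
    have hp0 : p ≠ 0 := by linarith
    exact (Real.rpow_left_inj (hv0 _).le (hv0 _).le hp0).1 h3
  have hkn : k ≤ n := by
    have h3 := hw.fintype_card_le_finrank
    simpa using h3
  obtain ⟨S, Q, hS, hQS⟩ : ∃ (S : Finset (Fin n)) (Q : E n ≃ₗᵢ[ℝ] E n), S.card = n - k ∧
      ∀ j, ∀ i ∈ S, (Q.symm (w j)) i = 0 := by
    rcases lt_or_eq_of_le hkn with h | h
    · obtain ⟨f, hf, hfv⟩ := frame_unit h w
      obtain ⟨S, p, Q, hS, -, hQS, -⟩ := frameS h hw hf hfv
      exact ⟨S, Q, hS, hQS⟩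
    · refine ⟨∅, LinearIsometryEquiv.refl ℝ (E n), by simp [h], ?_⟩
      intro j i hi
      simp at hi
  have hsup : IsSuper p q (fun x => u (Q x)) (fun x => v (Q x)) := by
    refine ⟨hu.comp Q.contDiff, hv.comp Q.contDiff, fun x => hu0 _, fun x => hv0 _, ?_, ?_⟩
    · intro x
      rw [lap_rot hu, h1]
    · intro x
      rw [lap_rot hv, h2]
  have hw' : LinearIndependent ℝ fun j => Q.symm (w j) :=
    hw.map' Q.symm.toLinearEquiv.toLinearMap Q.symm.toLinearEquiv.ker
  have hk' : k = n - S.card := by omega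
  have hm : S.card + k = n := by omega
  have hpu : ∀ j x, (fun x => u (Q x)) (x + Q.symm (w j)) = (fun x => u (Q x)) x := by
    intro j x
    show u (Q (x + Q.symm (w j))) = u (Q x)
    rw [map_add, Q.apply_symm_apply, hper]
  have hpv : ∀ j x, (fun x => v (Q x)) (x + Q.symm (w j)) = (fun x => v (Q x)) x := by
    intro j x
    show v (Q (x + Q.symm (w j))) = v (Q x)
    rw [map_add, Q.apply_symm_apply, hvper]
  rcases expo hp hq hn hsub hk hm with h | h
  · exact super_zero S hk' hp hq h hsup hw' hQS hpu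
  · exact super_zero S hk' hq hp (by rw [mul_comm q p]; exact h) hsup.symm hw' hQS hpv

end Vale.Agent.P100
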